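import Mathlib

/-!
# P066: statement-level definitions

Vertices are `0, …, n-1`.  A Hessenberg function is given as `h : ℕ → ℕ` (only the values
`h 0, …, h (n-1)` matter); vertex `a` is joined to vertex `b` iff `a < b < h a`.  This is the
0-indexed form of the convention `i < j ≤ h(i)` of the problem.
-/

namespace Vale.Agent.Lib.P066

open Finset Polynomial

/-- `h` is a Hessenberg function on `{0,…,n-1}`: weakly increasing with `a < h a ≤ n`
(0-indexed form of `i ≤ h(i) ≤ n`). -/
def IsHess (n : ℕ) (h : ℕ → ℕ) : Prop :=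
  (∀ a, a < n → a < h a ∧ h a ≤ n) ∧ ∀ a b, a ≤ b → b < n → h a ≤ h b

/-- `f` is a proper colouring of `G(h)` with colours in `Fin N` -/
def IsProper (n N : ℕ) (h : ℕ → ℕ) (f : Fin n → Fin N) : Prop :=
  ∀ a b : Fin n, a < b → (b : ℕ) < h a → f a ≠ f b

/-- number of ascents of the colouring `f` of `G(h)` -/
def asc (n N : ℕ) (h : ℕ → ℕ) (f : Fin n → Fin N) : ℕ :=
  (univ.filter fun p : Fin n × Fin n => p.1 < p.2 ∧ (p.2 : ℕ) < h p.1 ∧ f p.1 < f p.2).card

open Classical in
/-- the chromatic quasisymmetric function of `G(h)` in the `N` variables `x_0, …, x_(N-1)`,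
with coefficients in `ℤ[q]` (`q` is the polynomial variable `X`) -/
noncomputable def chi (n N : ℕ) (h : ℕ → ℕ) : MvPolynomial (Fin N) ℤ[X] :=
  ∑ f : Fin n → Fin N,
    if IsProper n N h f then
      MvPolynomial.C ((X : ℤ[X]) ^ asc n N h f) * ∏ a, MvPolynomial.X (f a)
    else 0

/-- the elementary symmetric function `e_λ = ∏ e_{λ_i}` in `N` variables -/
noncomputable def elam (N : ℕ) {n : ℕ} (l : n.Partition) : MvPolynomial (Fin N) ℤ[X] :=
  (l.parts.map fun i => MvPolynomial.esymm (Fin N) ℤ[X] i).prod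

/-- the `q`-number `[m]_q = 1 + q + ... + q^(m-1)` -/
def qn {K : Type*} [CommSemiring K] (q : K) (m : ℕ) : K := ∑ i ∈ Finset.range m, q ^ i

/-- the `q`-factorial `[m]_q! = [1]_q [2]_q ⋯ [m]_q` -/
def qf {K : Type*} [CommSemiring K] (q : K) (m : ℕ) : K := ∏ i ∈ Finset.range m, qn q (i + 1)

/-- `[m]_q!` as a polynomial in `q` with natural coefficients -/
noncomputable def qfact (m : ℕ) : ℕ[X] := qf (X : ℕ[X]) m

/-- `χ_{G(h)}` is `w` times an `e`-positive symmetric function: there are `c_λ ∈ ℕ[q]` such that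
`χ_{G(h)} = ∑_λ w c_λ e_λ` (in any number `N` of variables, with the same `c_λ`). -/
def EPosDiv (n : ℕ) (h : ℕ → ℕ) (w : ℕ[X]) : Prop :=
  ∃ c : n.Partition → ℕ[X], ∀ N : ℕ,
    chi n N h = ∑ l : n.Partition,
      MvPolynomial.C ((w * c l).map (Nat.castRingHom ℤ)) * elam N l

/-- The board function: the columns are the vertices `a ≤ u < a+k`; the last `j` columns get the
value `b + r` (they see all `r` rows `b, …, b+r-1`), the other columns get the value `b + i`
(they see the first `i` rows); outside the columns `h` is unchanged. -/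
def boardH (h : ℕ → ℕ) (a k b r i j : ℕ) : ℕ → ℕ := fun u =>
  if a ≤ u ∧ u < a + k then (if u + j < a + k then b + i else b + r) else h u

/-- Context conditions for a `k × r` board with columns `[a, a+k)` and rows `[b, b+r)`:
vertices to the left of the columns see none or all of the columns and none of the rows,
the vertices between columns and rows see all rows, and the rows are a clique of vertices
with the same value of `h`. -/
structure Board (n : ℕ) (h : ℕ → ℕ) (a k b r : ℕ) : Prop where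
  hab : a + k ≤ b
  hbn : b + r ≤ n
  left : ∀ d, d < a → h d ≤ a ∨ a + k ≤ h d
  left' : ∀ d, d < a → h d ≤ b
  mid : ∀ d, a + k ≤ d → d < b → b + r ≤ h d
  cls : ∀ v, b ≤ v → v < b + r → b + r ≤ h v
  cls' : ∀ v w, b ≤ v → v < b + r → b ≤ w → w < b + r → h v = h w

/-- ordered disjoint union of `G(h₁)` on `n₁` vertices with `G(h₂)` -/
def hunion (n₁ : ℕ) (h₁ h₂ : ℕ → ℕ) : ℕ → ℕ := fun u =>
  if u < n₁ then h₁ u else n₁ + h₂ (u - n₁)

/-- The class of pairs (graph, weight) generated from complete graphs by ordered disjoint unions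
and the two rectangle rules. -/
inductive Good : ℕ → (ℕ → ℕ) → ℕ[X] → Prop
  | complete (n : ℕ) : Good n (fun _ => n) (qfact n)
  | congr {n : ℕ} {h h' : ℕ → ℕ} {w : ℕ[X]} :
      (∀ u, u < n → h u = h' u) → Good n h w → Good n h' w
  | weaken {n : ℕ} {h : ℕ → ℕ} {w w' : ℕ[X]} : Good n h (w * w') → Good n h w
  | union {n₁ n₂ : ℕ} {h₁ h₂ : ℕ → ℕ} {w₁ w₂ : ℕ[X]} :
      (∀ u, u < n₁ → h₁ u ≤ n₁) → Good n₁ h₁ w₁ → Good n₂ h₂ w₂ →
      Good (n₁ + n₂) (hunion n₁ h₁ h₂) (w₁ * w₂)
  | rectA {n : ℕ} {h : ℕ → ℕ} {a k b r j : ℕ} {w : ℕ[X]} :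
      Board n h a k b r → r ≤ k → j ≤ k →
      (∀ i, i ≤ r → i ≤ j → j ≤ i + (k - r) →
        Good n (boardH h a k b r i 0) (qfact (r - i) * qfact i * qfact k * w)) →
      Good n (boardH h a k b r 0 j) (qfact r * qfact j * qfact (k - j) * w)
  | rectB {n : ℕ} {h : ℕ → ℕ} {a k b r i : ℕ} {w : ℕ[X]} :
      Board n h a k b r → k ≤ r → i ≤ r →
      (∀ j, j ≤ k → j ≤ i → i ≤ j + (r - k) →
        Good n (boardH h a k b r 0 j) (qfact r * qfact j * qfact (k - j) * w)) →
      Good n (boardH h a k b r i 0) (qfact (r - i) * qfact i * qfact k * w)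

end Vale.Agent.Lib.P066
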