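import Vale.Agent.Lib.P066.Core
import Vale.Agent.Lib.P066.Defs

namespace Vale.Agent.Lib.P066

open Finset

lemma chi_eq_Zf (n N : ℕ) (h : ℕ → ℕ) :
    chi n N h = Zf (MvPolynomial.C (Polynomial.X : Polynomial ℤ))
      (fun i : Fin N => (MvPolynomial.X i : MvPolynomial (Fin N) (Polynomial ℤ))) n h := by
  classical
  unfold chi Zf
  apply Finset.sum_congr rfl
  intro f _
  by_cases hp : IsProper n N h f
  · rw [if_pos hp]
    congr 1
    have h1 : ∀ p ∈ edges n h, phi (MvPolynomial.C (Polynomial.X : Polynomial ℤ) :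
          MvPolynomial (Fin N) (Polynomial ℤ)) (f p.1) (f p.2)
        = if f p.1 < f p.2 then MvPolynomial.C (Polynomial.X : Polynomial ℤ) else 1 := by
      intro p hp'
      rw [mem_edges] at hp'
      have := hp p.1 p.2 hp'.1 hp'.2
      simp [phi, this]
    rw [Finset.prod_congr rfl h1, Finset.prod_ite, Finset.prod_const, Finset.prod_const_one, mul_one,
      map_pow]
    congr 1
    unfold asc edges
    rw [Finset.filter_filter]
    congr 1
    ext p
    simp only [mem_filter, mem_univ, true_and, and_assoc]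
  · rw [if_neg hp]
    unfold IsProper at hp
    push Not at hp
    obtain ⟨a, b, hab, hb, hf⟩ := hp
    rw [Finset.prod_eq_zero (i := (a, b)) (mem_edges.mpr ⟨hab, hb⟩) (by simp [phi, hf]), zero_mul]

end Vale.Agent.Lib.P066
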