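import Vale.Agent.Lib.P066.Modular
import Vale.Agent.Lib.P066.Defs

namespace Vale.Agent.Lib.P066

open Finset

section qn
variable {K : Type*} [CommRing K]

@[simp] lemma qn_zero (q : K) : qn q 0 = 0 := by simp [qn]
@[simp] lemma qn_one (q : K) : qn q 1 = 1 := by simp [qn]
lemma qn_succ (q : K) (m : ℕ) : qn q (m + 1) = qn q m + q ^ m := by
  simp [qn, Finset.sum_range_succ]
lemma qn_succ' (q : K) (m : ℕ) : qn q (m + 1) = 1 + q * qn q m := by
  simp only [qn]
  rw [Finset.sum_range_succ', Finset.mul_sum, add_comm, pow_zero]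
  congr 1
  apply Finset.sum_congr rfl
  intro i _
  ring
lemma qn_add (q : K) (a b : ℕ) : qn q (a + b) = qn q a + q ^ a * qn q b := by
  induction b with
  | zero => simp
  | succ b ih => rw [← add_assoc, qn_succ, ih, qn_succ]; ring

/-- solution of the three-term recurrence coming from the modular law -/
lemma chain_sol (q : K) (f : ℕ → K) (L : ℕ)
    (hf : ∀ x, x + 2 ≤ L → (1 + q) * f (x + 1) = q * f x + f (x + 2)) :
    ∀ x, x ≤ L → f x = f 0 + qn q x * (f 1 - f 0) := by
  intro x
  induction x using Nat.strong_induction_on with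
  | _ x ih =>
    intro hx
    match x with
    | 0 => simp
    | 1 => simp
    | (y + 2) =>
      have h1 := ih y (by omega) (by omega)
      have h2 := ih (y + 1) (by omega) (by omega)
      have h3 := hf y hx
      have : f (y + 2) = (1 + q) * f (y + 1) - q * f y := by rw [h3]; ring
      rw [this, h1, h2, qn_succ q (y + 1), qn_succ q y]
      ring

lemma chain_one (q : K) (f : ℕ → K) (L : ℕ)
    (hf : ∀ x, x + 2 ≤ L + 1 → (1 + q) * f (x + 1) = q * f x + f (x + 2)) :
    qn q (L + 1) * f 1 = q * qn q L * f 0 + f (L + 1) := by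
  have := chain_sol q f (L + 1) hf (L + 1) le_rfl
  rw [this, qn_succ' q L]
  ring

end qn

section tri
variable {K : Type*} [CommRing K] {ι : Type*} [Fintype ι] [LinearOrder ι]

/-- column chain family -/
def hcol (h : ℕ → ℕ) (a k b r i κ x : ℕ) : ℕ → ℕ := fun u =>
  if a ≤ u ∧ u < a + k then
    (if u < a + κ then b + i else if u = a + κ then b + i + x else b + r) else h u

/-- row chain family -/
def hrow (h : ℕ → ℕ) (a k b r i κ y : ℕ) : ℕ → ℕ := fun u =>
  if a ≤ u ∧ u < a + k then
    (if u + y < a + κ + 1 then b + i else if u < a + κ + 1 then b + i + 1 else b + r) else h u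

lemma col_chain (q : K) (x : ι → K) {n : ℕ} {h : ℕ → ℕ} {a k b r : ℕ} (B : Board n h a k b r)
    (i j ρ κ : ℕ) (hr : r = i + ρ + 1) (hk : k = j + κ + 1) :
    qn q (ρ + 1) * Zf q x n (hcol h a k b r i κ 1)
      = q * qn q ρ * Zf q x n (hcol h a k b r i κ 0) + Zf q x n (hcol h a k b r i κ (ρ + 1)) := by
  apply chain_one q (fun t => Zf q x n (hcol h a k b r i κ t)) ρ
  intro t ht
  obtain ⟨hab, hbn, left, left', mid, cls, cls'⟩ := B
  apply modI q x _ _ _ (a + κ) (b + i + t)
  · omega
  · omega
  · simp only [hcol]; rw [if_pos (by omega), if_neg (by omega), if_pos trivial]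
  · simp only [hcol]; rw [if_pos (by omega), if_neg (by omega), if_pos trivial]; omega
  · simp only [hcol]; rw [if_pos (by omega), if_neg (by omega), if_pos trivial]; omega
  · intro u hu
    simp only [hcol]
    split_ifs <;> first | rfl | omega
  · intro u hu
    simp only [hcol]
    split_ifs <;> first | rfl | omega
  · simp only [hcol]
    rw [if_neg (by omega), if_neg (by omega)]
    exact cls' _ _ (by omega) (by omega) (by omega) (by omega)
  · simp only [hcol]
    rw [if_neg (by omega)]
    have := cls (b + i + t) (by omega) (by omega)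
    omega
  · intro d hd
    simp only [hcol]
    split_ifs with h1 h2 h3
    · omega
    · omega
    · omega
    · by_cases hda : d < a
      · have := left' d hda; omega
      · by_cases hdb : d < b
        · have := mid d (by omega) hdb; omega
        · have := cls d (by omega) (by omega); omega

lemma row_chain (q : K) (x : ι → K) {n : ℕ} {h : ℕ → ℕ} {a k b r : ℕ} (B : Board n h a k b r)
    (i j ρ κ : ℕ) (hr : r = i + ρ + 1) (hk : k = j + κ + 1) :
    qn q (κ + 1) * Zf q x n (hrow h a k b r i κ 1)
      = q * qn q κ * Zf q x n (hrow h a k b r i κ 0) + Zf q x n (hrow h a k b r i κ (κ + 1)) := by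
  apply chain_one q (fun t => Zf q x n (hrow h a k b r i κ t)) κ
  intro t ht
  obtain ⟨hab, hbn, left, left', mid, cls, cls'⟩ := B
  obtain ⟨z, hz⟩ : ∃ z, κ = t + 1 + z := ⟨κ - (t + 1), by omega⟩
  apply modII q x _ _ _ (b + i) (a + z)
  · omega
  · omega
  · simp only [hrow]; rw [if_pos (by omega), if_pos (by omega)]
  · simp only [hrow]; rw [if_pos (by omega), if_pos (by omega)]
  · simp only [hrow]; rw [if_pos (by omega), if_pos (by omega)]
  · simp only [hrow]; rw [if_pos (by omega), if_neg (by omega), if_pos (by omega)]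
  · simp only [hrow]; rw [if_pos (by omega), if_neg (by omega), if_pos (by omega)]
  · simp only [hrow]; rw [if_pos (by omega), if_neg (by omega), if_pos (by omega)]
  · intro u hu1 hu2
    simp only [hrow]
    split_ifs <;> first | rfl | omega
  · intro u hu1 hu2
    simp only [hrow]
    split_ifs <;> first | rfl | omega
  · intro d hd
    simp only [hrow]
    split_ifs with h1 h2 h3
    · omega
    · omega
    · omega
    · have := left d (by omega); omega

/-- the triangle relation (T) -/
lemma triangle (q : K) (x : ι → K) {n : ℕ} {h : ℕ → ℕ} {a k b r : ℕ} (B : Board n h a k b r)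
    (i j ρ κ : ℕ) (hr : r = i + ρ + 1) (hk : k = j + κ + 1) :
    qn q (κ + 1) * Zf q x n (boardH h a k b r i (j + 1))
      = q * (qn q (ρ + 1) * qn q κ - qn q (κ + 1) * qn q ρ) * Zf q x n (boardH h a k b r i j)
        + qn q (ρ + 1) * Zf q x n (boardH h a k b r (i + 1) j) := by
  have hc := col_chain q x B i j ρ κ hr hk
  have hw := row_chain q x B i j ρ κ hr hk
  have e1 : hcol h a k b r i κ 1 = hrow h a k b r i κ 1 := by
    funext u; simp only [hcol, hrow]; split_ifs <;> first | rfl | omega
  have e2 : hcol h a k b r i κ 0 = boardH h a k b r i j := by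
    funext u; simp only [hcol, boardH]; split_ifs <;> first | rfl | omega
  have e3 : hcol h a k b r i κ (ρ + 1) = boardH h a k b r i (j + 1) := by
    funext u; simp only [hcol, boardH]; split_ifs <;> first | rfl | omega
  have e4 : hrow h a k b r i κ 0 = boardH h a k b r i j := by
    funext u; simp only [hrow, boardH]; split_ifs <;> first | rfl | omega
  have e5 : hrow h a k b r i κ (κ + 1) = boardH h a k b r (i + 1) j := by
    funext u; simp only [hrow, boardH]; split_ifs <;> first | rfl | omega
  rw [e1, e2, e3] at hc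
  rw [e4, e5] at hw
  have h1 : Zf q x n (boardH h a k b r i (j + 1))
      = qn q (ρ + 1) * Zf q x n (hrow h a k b r i κ 1) - q * qn q ρ * Zf q x n (boardH h a k b r i j) := by
    rw [hc]; ring
  rw [h1]
  have h2 : qn q (κ + 1) * (qn q (ρ + 1) * Zf q x n (hrow h a k b r i κ 1)
      - q * qn q ρ * Zf q x n (boardH h a k b r i j))
      = qn q (ρ + 1) * (qn q (κ + 1) * Zf q x n (hrow h a k b r i κ 1))
        - qn q (κ + 1) * (q * qn q ρ * Zf q x n (boardH h a k b r i j)) := by ring
  rw [h2, hw]
  ring

end tri

end Vale.Agent.Lib.P066
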