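import Vale.Agent.Lib.P066.Union
import Vale.Agent.Lib.P066.Chain

namespace Vale.Agent.Lib.P066

open Finset

section complete
variable {K : Type*} [CommRing K] {ι : Type*} [Fintype ι] [LinearOrder ι]

lemma rank_sum (q : K) (S : Finset ι) :
    ∑ c ∈ S, ∏ s ∈ S.erase c, phi q c s = qn q S.card := by
  induction S using Finset.induction_on_min with
  | empty => simp
  | insert m S hm ih =>
    have hmS : m ∉ S := fun h => lt_irrefl _ (hm m h)
    rw [Finset.sum_insert hmS, Finset.card_insert_of_notMem hmS, qn_succ, Finset.erase_insert hmS]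
    have h1 : ∏ s ∈ S, phi q m s = q ^ S.card := by
      rw [Finset.prod_congr rfl (fun s hs => by
        show phi q m s = q
        simp [phi, hm s hs])]
      simp
    have h2 : ∑ c ∈ S, ∏ s ∈ (insert m S).erase c, phi q c s = ∑ c ∈ S, ∏ s ∈ S.erase c, phi q c s := by
      apply Finset.sum_congr rfl
      intro c hc
      have hcm : m ≠ c := fun h => hmS (h ▸ hc)
      rw [Finset.erase_insert_of_ne hcm, Finset.prod_insert (by simp [hmS])]
      have : phi q c m = 1 := by
        have := hm c hc
        simp [phi, not_lt.mpr this.le, this.ne']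
      rw [this, one_mul]
    rw [h1, h2, ih]
    ring

/-- weight of a colouring of the complete graph -/
def Wc (q : K) (n : ℕ) (f : Fin n → ι) : K :=
  ∏ a : Fin n, ∏ b : Fin n, if a < b then phi q (f a) (f b) else 1

lemma Wc_zero (q : K) (n : ℕ) (f : Fin n → ι) (hf : ¬ Function.Injective f) : Wc q n f = 0 := by
  simp only [Function.Injective, not_forall] at hf
  obtain ⟨a, b, hab, hne⟩ := hf
  rcases lt_or_gt_of_ne hne with h | h
  · apply Finset.prod_eq_zero (Finset.mem_univ a)
    apply Finset.prod_eq_zero (Finset.mem_univ b)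
    simp [h, phi, hab]
  · apply Finset.prod_eq_zero (Finset.mem_univ b)
    apply Finset.prod_eq_zero (Finset.mem_univ a)
    simp [h, phi, hab]

lemma Wc_cons (q : K) (n : ℕ) (c : ι) (f : Fin n → ι) :
    Wc q (n + 1) (Fin.cons c f : Fin (n + 1) → ι) = (∏ b, phi q c (f b)) * Wc q n f := by
  unfold Wc
  rw [Fin.prod_univ_succ, Fin.prod_univ_succ]
  simp only [Fin.cons_zero, Fin.cons_succ, lt_irrefl, if_false, one_mul, Fin.succ_pos, if_true]
  congr 1
  apply Finset.prod_congr rfl
  intro a _
  rw [Fin.prod_univ_succ]
  simp only [Fin.cons_zero, Fin.cons_succ, Fin.not_lt_zero, if_false, one_mul, Fin.succ_lt_succ_iff]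

lemma reindex (n : ℕ) (c : ι) (F : Finset ι → K) :
    ∑ S ∈ (powersetCard n (univ : Finset ι)).filter (fun S => c ∉ S), F (insert c S)
      = ∑ S ∈ (powersetCard (n + 1) (univ : Finset ι)).filter (fun S => c ∈ S), F S := by
  apply Finset.sum_nbij' (fun S => insert c S) (fun S => S.erase c)
  · intro S hS
    simp only [mem_filter, mem_powersetCard, subset_univ, true_and] at hS ⊢
    exact ⟨by rw [Finset.card_insert_of_notMem hS.2, hS.1], Finset.mem_insert_self _ _⟩
  · intro S hS
    simp only [mem_filter, mem_powersetCard, subset_univ, true_and] at hS ⊢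
    exact ⟨by rw [Finset.card_erase_of_mem hS.2, hS.1]; rfl, Finset.notMem_erase _ _⟩
  · intro S hS
    simp only [mem_filter, mem_powersetCard, subset_univ, true_and] at hS
    exact Finset.erase_insert hS.2
  · intro S hS
    simp only [mem_filter, mem_powersetCard, subset_univ, true_and] at hS
    exact Finset.insert_erase hS.2
  · intro S _
    rfl

lemma complete_aux (q : K) (x : ι → K) : ∀ (n : ℕ) (G : Finset ι → K),
    ∑ f : Fin n → ι, Wc q n f * (∏ a, x (f a)) * G (univ.image f)
      = qf q n * ∑ S ∈ powersetCard n (univ : Finset ι), (∏ s ∈ S, x s) * G S := by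
  intro n
  induction n with
  | zero =>
    intro G
    simp [Wc, qf]
  | succ n ih =>
    intro G
    rw [← Fintype.sum_equiv (Fin.consEquiv (fun _ : Fin (n + 1) => ι)) _ _ (fun _ => rfl),
      Fintype.sum_prod_type]
    simp only [Fin.consEquiv, Equiv.coe_fn_mk]
    have step : ∀ c : ι, ∑ f : Fin n → ι, Wc q (n + 1) (Fin.cons c f : Fin (n + 1) → ι)
          * (∏ a, x ((Fin.cons c f : Fin (n + 1) → ι) a))
          * G (univ.image (Fin.cons c f : Fin (n + 1) → ι))
        = qf q n * ∑ S ∈ (powersetCard (n + 1) (univ : Finset ι)).filter (fun S => c ∈ S),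
            (∏ s ∈ S, x s) * G S * ∏ s ∈ S.erase c, phi q c s := by
      intro c
      have h1 : ∀ f : Fin n → ι, Wc q (n + 1) (Fin.cons c f : Fin (n + 1) → ι)
          * (∏ a, x ((Fin.cons c f : Fin (n + 1) → ι) a))
          * G (univ.image (Fin.cons c f : Fin (n + 1) → ι))
          = Wc q n f * (∏ a, x (f a))
            * (x c * (∏ s ∈ univ.image f, phi q c s) * G (insert c (univ.image f))) := by
        intro f
        have himg : univ.image (Fin.cons c f : Fin (n + 1) → ι) = insert c (univ.image f) := by
          ext y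
          simp only [mem_image, mem_univ, true_and, mem_insert]
          constructor
          · rintro ⟨a, rfl⟩
            refine Fin.cases ?_ ?_ a
            · left; rfl
            · intro a'; right; exact ⟨a', rfl⟩
          · rintro (rfl | ⟨a, rfl⟩)
            · exact ⟨0, rfl⟩
            · exact ⟨a.succ, rfl⟩
        rw [himg, Wc_cons, Fin.prod_univ_succ]
        simp only [Fin.cons_zero, Fin.cons_succ]
        by_cases hf : Function.Injective f
        · rw [Finset.prod_image (fun a _ b _ hab => hf hab)]
          ring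
        · rw [Wc_zero q n f hf]
          ring
      rw [Finset.sum_congr rfl (fun f _ => h1 f),
        ih (fun S => x c * (∏ s ∈ S, phi q c s) * G (insert c S))]
      congr 1
      rw [← reindex n c (fun S => (∏ s ∈ S, x s) * G S * ∏ s ∈ S.erase c, phi q c s),
        Finset.sum_filter]
      apply Finset.sum_congr rfl
      intro S _
      by_cases hc : c ∈ S
      · rw [if_neg (not_not.mpr hc), Finset.prod_eq_zero hc (show phi q c c = 0 by simp [phi])]
        ring
      · rw [if_pos hc, Finset.prod_insert hc, Finset.erase_insert hc]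
        ring
    rw [Finset.sum_congr rfl (fun c _ => step c), ← Finset.mul_sum]
    simp only [Finset.sum_filter]
    rw [Finset.sum_comm]
    have h2 : ∀ S ∈ powersetCard (n + 1) (univ : Finset ι),
        (∑ c : ι, if c ∈ S then (∏ s ∈ S, x s) * G S * ∏ s ∈ S.erase c, phi q c s else 0)
          = qn q (n + 1) * ((∏ s ∈ S, x s) * G S) := by
      intro S hS
      rw [← Finset.sum_filter, Finset.filter_mem_eq_inter, Finset.univ_inter, ← Finset.mul_sum,
        rank_sum, (mem_powersetCard.mp hS).2]
      ring
    rw [Finset.sum_congr rfl h2, ← Finset.mul_sum]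
    have hq : qf q (n + 1) = qn q (n + 1) * qf q n := by
      rw [qf, Finset.prod_range_succ, mul_comm]; rfl
    rw [hq]
    ring

lemma Zf_complete (q : K) (x : ι → K) (n : ℕ) :
    Zf q x n (fun _ => n) = qf q n * ∑ S ∈ powersetCard n (univ : Finset ι), ∏ s ∈ S, x s := by
  have := complete_aux q x n (fun _ => 1)
  simp only [mul_one] at this
  rw [← this]
  unfold Zf
  apply Finset.sum_congr rfl
  intro f _
  rw [prod_edges n _ (fun a b => phi q (f a) (f b))]
  unfold Wc
  simp

end complete

end Vale.Agent.Lib.P066
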