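import Mathlib

namespace Vale.Agent.Lib.P066

open Finset

section core
variable {K : Type*} [CommRing K] {ι : Type*} [Fintype ι] [LinearOrder ι]

/-- weight of an edge whose smaller endpoint has colour `u` and larger endpoint colour `v` -/
def phi (q : K) (u v : ι) : K := if u < v then q else if u = v then 0 else 1

/-- edge set of the graph `G(h)` on `Fin n` (0-indexed: `a ~ b` iff `a < b < h a`) -/
def edges (n : ℕ) (h : ℕ → ℕ) : Finset (Fin n × Fin n) :=
  univ.filter fun p => p.1 < p.2 ∧ (p.2 : ℕ) < h p.1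

lemma mem_edges {n : ℕ} {h : ℕ → ℕ} {p : Fin n × Fin n} :
    p ∈ edges n h ↔ p.1 < p.2 ∧ (p.2 : ℕ) < h p.1 := by
  simp [edges]

/-- partition function -/
def Zf (q : K) (x : ι → K) (n : ℕ) (h : ℕ → ℕ) : K :=
  ∑ f : Fin n → ι, (∏ p ∈ edges n h, phi q (f p.1) (f p.2)) * ∏ a, x (f a)

lemma edges_congr {n : ℕ} {h h' : ℕ → ℕ} (hh : ∀ u, u < n → h u = h' u) : edges n h = edges n h' := by
  ext p
  simp only [mem_edges]
  rw [hh p.1 p.1.2]

lemma Zf_congr (q : K) (x : ι → K) {n : ℕ} {h h' : ℕ → ℕ} (hh : ∀ u, u < n → h u = h' u) :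
    Zf q x n h = Zf q x n h' := by
  unfold Zf
  rw [edges_congr hh]

lemma modular_core (q : K) (x : ι → K) {n : ℕ} (E0 : Finset (Fin n × Fin n)) (b c : Fin n)
    (e1 e2 : Fin n × Fin n) (hbc : (b, c) ∈ E0)
    (hinv : ∀ p, p ∈ E0.erase (b, c) →
      (Equiv.swap b c p.1, Equiv.swap b c p.2) ∈ E0.erase (b, c))
    (he1 : e1 ∉ E0) (he2 : e2 ∉ E0) (he12 : e1 ≠ e2)
    (hs : (Equiv.swap b c e1.1, Equiv.swap b c e1.2) = e2)
    (hloc : ∀ f : Fin n → ι,
      phi q (f b) (f c) * ((1 + q) * phi q (f e1.1) (f e1.2) - q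
          - phi q (f e1.1) (f e1.2) * phi q (f e2.1) (f e2.2))
      + phi q (f c) (f b) * ((1 + q) * phi q (f e2.1) (f e2.2) - q
          - phi q (f e1.1) (f e1.2) * phi q (f e2.1) (f e2.2)) = 0) :
    (1 + q) * ∑ f : Fin n → ι, (∏ p ∈ insert e1 E0, phi q (f p.1) (f p.2)) * ∏ a, x (f a)
      = q * ∑ f : Fin n → ι, (∏ p ∈ E0, phi q (f p.1) (f p.2)) * ∏ a, x (f a)
        + ∑ f : Fin n → ι, (∏ p ∈ insert e2 (insert e1 E0), phi q (f p.1) (f p.2)) * ∏ a, x (f a) := by
  classical
  set σ := Equiv.swap b c with hσ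
  set U : (Fin n → ι) → K := fun f => ∏ p ∈ E0.erase (b, c), phi q (f p.1) (f p.2) with hUdef
  have hU : ∀ f : Fin n → ι, U (f ∘ σ) = U f := by
    intro f
    apply Finset.prod_equiv (Equiv.prodCongr σ σ)
    · intro p
      constructor
      · exact hinv p
      · intro hp
        have := hinv _ hp
        simpa [hσ] using this
    · intro p _
      simp
  have hmon : ∀ f : Fin n → ι, ∏ a, x (f (σ a)) = ∏ a, x (f a) := by
    intro f
    exact Equiv.prod_comp σ (fun a => x (f a))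
  have hE0 : ∀ f : Fin n → ι, ∏ p ∈ E0, phi q (f p.1) (f p.2) = phi q (f b) (f c) * U f := by
    intro f
    rw [hUdef]
    exact (Finset.mul_prod_erase E0 (fun p => phi q (f p.1) (f p.2)) hbc).symm
  have hE1 : ∀ f : Fin n → ι, ∏ p ∈ insert e1 E0, phi q (f p.1) (f p.2)
      = phi q (f e1.1) (f e1.2) * (phi q (f b) (f c) * U f) := by
    intro f
    rw [Finset.prod_insert he1, hE0]
  have he2' : e2 ∉ insert e1 E0 := by
    simp only [Finset.mem_insert, not_or]
    exact ⟨fun h => he12 h.symm, he2⟩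
  have hE2 : ∀ f : Fin n → ι, ∏ p ∈ insert e2 (insert e1 E0), phi q (f p.1) (f p.2)
      = phi q (f e2.1) (f e2.2) * (phi q (f e1.1) (f e1.2) * (phi q (f b) (f c) * U f)) := by
    intro f
    rw [Finset.prod_insert he2', hE1]
  have hs1 : σ e1.1 = e2.1 := by rw [← hs]
  have hs2 : σ e1.2 = e2.2 := by rw [← hs]
  have hs1' : σ e2.1 = e1.1 := by rw [← hs1]; simp [hσ]
  have hs2' : σ e2.2 = e1.2 := by rw [← hs2]; simp [hσ]
  have hσb : σ b = c := by simp [hσ]
  have hσc : σ c = b := by simp [hσ]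
  set T : (Fin n → ι) → K := fun f =>
    (phi q (f b) (f c) * ((1 + q) * phi q (f e1.1) (f e1.2) - q
          - phi q (f e1.1) (f e1.2) * phi q (f e2.1) (f e2.2))) * (U f * ∏ a, x (f a)) with hT
  have key : ∑ f : Fin n → ι, T f = 0 := by
    apply Finset.sum_involution (fun f _ => f ∘ σ)
    · intro f _
      have h1 := hloc f
      simp only [hT, hU, hmon, Function.comp, hs1, hs2, hs1', hs2', hσb, hσc]
      have : phi q (f b) (f c) * ((1 + q) * phi q (f e1.1) (f e1.2) - q
          - phi q (f e1.1) (f e1.2) * phi q (f e2.1) (f e2.2)) * (U f * ∏ a, x (f a))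
          + phi q (f c) (f b) * ((1 + q) * phi q (f e2.1) (f e2.2) - q
          - phi q (f e2.1) (f e2.2) * phi q (f e1.1) (f e1.2)) * (U f * ∏ a, x (f a))
          = (phi q (f b) (f c) * ((1 + q) * phi q (f e1.1) (f e1.2) - q
          - phi q (f e1.1) (f e1.2) * phi q (f e2.1) (f e2.2))
      + phi q (f c) (f b) * ((1 + q) * phi q (f e2.1) (f e2.2) - q
          - phi q (f e1.1) (f e1.2) * phi q (f e2.1) (f e2.2))) * (U f * ∏ a, x (f a)) := by ring
      rw [this, h1, zero_mul]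
    · intro f _ hne heq
      apply hne
      have : f c = f b := by
        have := congrFun heq b
        simpa [hσb] using this
      simp only [hT]
      rw [this]
      simp [phi]
    · intro f _
      exact Finset.mem_univ _
    · intro f _
      funext a
      simp [hσ]
  have expand : (1 + q) * ∑ f : Fin n → ι, (∏ p ∈ insert e1 E0, phi q (f p.1) (f p.2)) * ∏ a, x (f a)
      - (q * ∑ f : Fin n → ι, (∏ p ∈ E0, phi q (f p.1) (f p.2)) * ∏ a, x (f a)
        + ∑ f : Fin n → ι, (∏ p ∈ insert e2 (insert e1 E0), phi q (f p.1) (f p.2)) * ∏ a, x (f a))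
      = ∑ f : Fin n → ι, T f := by
    rw [Finset.mul_sum, Finset.mul_sum, ← Finset.sum_add_distrib, ← Finset.sum_sub_distrib]
    apply Finset.sum_congr rfl
    intro f _
    rw [hE0, hE1, hE2, hT]
    ring
  have := expand.trans key
  exact sub_eq_zero.mp this

end core

end Vale.Agent.Lib.P066
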