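import Vale.Agent.Lib.P066.QAlg

namespace Vale.Agent.Lib.P066

open Finset Polynomial

/-- the coefficient embedding `ℕ[q] → ℤ[q][x_0, …, x_(N-1)]` -/
noncomputable def io (N : ℕ) : ℕ[X] →+* MvPolynomial (Fin N) ℤ[X] :=
  (MvPolynomial.C).comp (Polynomial.mapRingHom (Nat.castRingHom ℤ))

lemma io_apply (N : ℕ) (p : ℕ[X]) : io N p = MvPolynomial.C (p.map (Nat.castRingHom ℤ)) := rfl

lemma io_X (N : ℕ) : io N X = MvPolynomial.C (X : ℤ[X]) := by
  rw [io_apply, Polynomial.map_X]

section maps
variable {K L : Type*} [CommSemiring K] [CommSemiring L] (φ : K →+* L)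

lemma map_qn (q : K) (m : ℕ) : φ (qn q m) = qn (φ q) m := by
  simp [qn, map_sum, map_pow]

lemma map_qf (q : K) (m : ℕ) : φ (qf q m) = qf (φ q) m := by
  simp [qf, map_prod, map_qn]

lemma map_gb (q : K) : ∀ m d, φ (gb q m d) = gb (φ q) m d := by
  intro m
  induction m with
  | zero => intro d; cases d <;> simp [gb]
  | succ m ih => intro d; cases d with
    | zero => simp [gb]
    | succ d => simp [gb, map_add, map_mul, map_pow, ih]

end maps

lemma io_qfact (N m : ℕ) : io N (qfact m) = qf (MvPolynomial.C (X : ℤ[X])) m := by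
  rw [qfact, map_qf, io_X]

lemma qnCX_ne_zero (N s : ℕ) :
    qn (MvPolynomial.C (X : ℤ[X]) : MvPolynomial (Fin N) ℤ[X]) (s + 1) ≠ 0 := by
  rw [← map_qn (MvPolynomial.C : ℤ[X] →+* MvPolynomial (Fin N) ℤ[X])]
  intro h
  have h1 : qn (X : ℤ[X]) (s + 1) = 0 := by
    apply MvPolynomial.C_injective (Fin N) ℤ[X]
    rw [h, map_zero]
  have h2 := congrArg (Polynomial.evalRingHom (1 : ℤ)) h1
  rw [map_qn, map_zero] at h2
  simp [qn] at h2
  omega

/-- `e`-positivity of a family of polynomials (one for each number of variables) -/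
def EP (n : ℕ) (F : (N : ℕ) → MvPolynomial (Fin N) ℤ[X]) : Prop :=
  ∃ c : n.Partition → ℕ[X], ∀ N, F N = ∑ l, io N (c l) * elam N l

namespace EP

lemma zero (n : ℕ) : EP n (fun _ => 0) := ⟨fun _ => 0, fun N => by simp⟩

lemma add {n : ℕ} {F G : (N : ℕ) → MvPolynomial (Fin N) ℤ[X]} (hF : EP n F) (hG : EP n G) :
    EP n (fun N => F N + G N) := by
  obtain ⟨c, hc⟩ := hF
  obtain ⟨d, hd⟩ := hG
  refine ⟨fun l => c l + d l, fun N => ?_⟩
  show F N + G N = _
  rw [hc, hd, ← Finset.sum_add_distrib]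
  apply Finset.sum_congr rfl
  intro l _
  rw [map_add, add_mul]

lemma smul {n : ℕ} {F : (N : ℕ) → MvPolynomial (Fin N) ℤ[X]} (p : ℕ[X]) (hF : EP n F) :
    EP n (fun N => io N p * F N) := by
  obtain ⟨c, hc⟩ := hF
  refine ⟨fun l => p * c l, fun N => ?_⟩
  show io N p * F N = _
  rw [hc, Finset.mul_sum]
  apply Finset.sum_congr rfl
  intro l _
  rw [map_mul, mul_assoc]

lemma sum {n : ℕ} {α : Type*} (s : Finset α) (F : α → (N : ℕ) → MvPolynomial (Fin N) ℤ[X])
    (hF : ∀ i ∈ s, EP n (F i)) : EP n (fun N => ∑ i ∈ s, F i N) := by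
  classical
  induction s using Finset.induction_on with
  | empty => simpa using zero n
  | insert a s ha ih =>
    have h1 := add (hF a (Finset.mem_insert_self _ _))
      (ih (fun i hi => hF i (Finset.mem_insert_of_mem hi)))
    simpa [Finset.sum_insert ha] using h1

lemma single {n : ℕ} (l : n.Partition) : EP n (fun N => elam N l) := by
  classical
  refine ⟨fun l' => if l' = l then 1 else 0, fun N => ?_⟩
  rw [Finset.sum_eq_single l]
  · simp
  · intro b _ hb
    simp [hb]
  · intro h
    exact absurd (Finset.mem_univ l) h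

lemma congr {n : ℕ} {F G : (N : ℕ) → MvPolynomial (Fin N) ℤ[X]} (hF : EP n F)
    (h : ∀ N, G N = F N) : EP n G := by
  obtain ⟨c, hc⟩ := hF
  exact ⟨c, fun N => by rw [h, hc]⟩

end EP

/-- union of two partitions -/
def pjoin {n m : ℕ} (l : n.Partition) (l' : m.Partition) : (n + m).Partition where
  parts := l.parts + l'.parts
  parts_pos := by
    intro i hi
    rcases Multiset.mem_add.mp hi with h | h
    · exact l.parts_pos h
    · exact l'.parts_pos h
  parts_sum := by rw [Multiset.sum_add, l.parts_sum, l'.parts_sum]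

lemma elam_pjoin (N : ℕ) {n m : ℕ} (l : n.Partition) (l' : m.Partition) :
    elam N (pjoin l l') = elam N l * elam N l' := by
  simp [elam, pjoin, Multiset.map_add, Multiset.prod_add]

lemma EP.mul {n m : ℕ} {F G : (N : ℕ) → MvPolynomial (Fin N) ℤ[X]} (hF : EP n F) (hG : EP m G) :
    EP (n + m) (fun N => F N * G N) := by
  obtain ⟨c, hc⟩ := hF
  obtain ⟨d, hd⟩ := hG
  have h1 : EP (n + m) (fun N => ∑ l ∈ (univ : Finset n.Partition), ∑ l' ∈ (univ : Finset m.Partition),
      io N (c l * d l') * elam N (pjoin l l')) := by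
    apply EP.sum
    intro l _
    apply EP.sum
    intro l' _
    exact EP.smul _ (EP.single _)
  apply h1.congr
  intro N
  rw [hc, hd, Finset.sum_mul_sum]
  apply Finset.sum_congr rfl
  intro l _
  apply Finset.sum_congr rfl
  intro l' _
  rw [elam_pjoin, map_mul]
  ring

lemma EP.esymm (n : ℕ) : EP n (fun N => MvPolynomial.esymm (Fin N) ℤ[X] n) := by
  apply (EP.single (Nat.Partition.indiscrete n)).congr
  intro N
  by_cases hn : n = 0
  · subst hn
    simp [elam, Nat.Partition.indiscrete, Nat.Partition.ofSums]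
  · have : Multiset.filter (fun x => ¬x = 0) ({n} : Multiset ℕ) = {n} := by
      rw [Multiset.filter_eq_self]
      intro a ha
      rw [Multiset.mem_singleton] at ha
      rw [ha]; exact hn
    simp [elam, Nat.Partition.indiscrete, Nat.Partition.ofSums, this]

end Vale.Agent.Lib.P066
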