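import Vale.Agent.Lib.P066.Core

namespace Vale.Agent.Lib.P066

open Finset

section loc
variable {K : Type*} [CommRing K] {ι : Type*} [LinearOrder ι]

lemma phi_locI (q : K) (x y z : ι) :
    phi q y z * ((1 + q) * phi q x y - q - phi q x y * phi q x z)
      + phi q z y * ((1 + q) * phi q x z - q - phi q x y * phi q x z) = 0 := by
  unfold phi
  split_ifs <;> first | ring1 | (exfalso; order)

lemma phi_locII (q : K) (x y z : ι) :
    phi q y z * ((1 + q) * phi q z x - q - phi q z x * phi q y x)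
      + phi q z y * ((1 + q) * phi q y x - q - phi q z x * phi q y x) = 0 := by
  unfold phi
  split_ifs <;> first | ring1 | (exfalso; order)

end loc

/-- the transposition of `m` and `m+1` on natural numbers -/
def sw (m w : ℕ) : ℕ := if w = m then m + 1 else if w = m + 1 then m else w

lemma sw_left (m : ℕ) : sw m m = m + 1 := by simp [sw]
lemma sw_right (m : ℕ) : sw m (m + 1) = m := by simp [sw]
lemma sw_other (m w : ℕ) (h1 : w ≠ m) (h2 : w ≠ m + 1) : sw m w = w := by simp [sw, h1, h2]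

lemma swap_val {n : ℕ} (m : ℕ) (hm : m + 1 < n) (w : Fin n) :
    ((Equiv.swap (⟨m, by omega⟩ : Fin n) ⟨m + 1, hm⟩ w : Fin n) : ℕ) = sw m w := by
  rw [Equiv.swap_apply_def]
  by_cases h1 : (w : ℕ) = m
  · have : w = ⟨m, by omega⟩ := Fin.ext h1
    rw [if_pos this, h1, sw_left]
  · have h1' : w ≠ ⟨m, by omega⟩ := fun h => h1 (by rw [h])
    by_cases h2 : (w : ℕ) = m + 1
    · have : w = ⟨m + 1, hm⟩ := Fin.ext h2
      rw [if_neg h1', if_pos this, h2, sw_right]
    · have h2' : w ≠ ⟨m + 1, hm⟩ := fun h => h2 (by rw [h])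
      rw [if_neg h1', if_neg h2', sw_other m w h1 h2]

lemma swap_inv_nat (h0 : ℕ → ℕ) (m : ℕ) (hh : h0 m = h0 (m + 1))
    (hd : ∀ d, d < m → h0 d ≤ m ∨ m + 2 ≤ h0 d) (u v : ℕ) (huv : u < v) (hv : v < h0 u)
    (hne : ¬ (u = m ∧ v = m + 1)) :
    sw m u < sw m v ∧ sw m v < h0 (sw m u) ∧ ¬ (sw m u = m ∧ sw m v = m + 1) := by
  by_cases hu1 : u = m
  · subst hu1
    have hv1 : v ≠ u := by omega
    have hv2 : v ≠ u + 1 := by omega
    rw [sw_left, sw_other u v hv1 hv2, ← hh]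
    omega
  · by_cases hu2 : u = m + 1
    · subst hu2
      have hv1 : v ≠ m := by omega
      have hv2 : v ≠ m + 1 := by omega
      rw [sw_right, sw_other m v hv1 hv2, hh]
      omega
    · rw [sw_other m u hu1 hu2]
      by_cases hv1 : v = m
      · subst hv1
        have := hd u huv
        rw [sw_left]
        omega
      · by_cases hv2 : v = m + 1
        · subst hv2
          rw [sw_right]
          omega
        · rw [sw_other m v hv1 hv2]
          omega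

lemma edges_swap_inv {n : ℕ} (h0 : ℕ → ℕ) (m : ℕ) (hm : m + 1 < n) (hh : h0 m = h0 (m + 1))
    (hd : ∀ d, d < m → h0 d ≤ m ∨ m + 2 ≤ h0 d) :
    ∀ p, p ∈ (edges n h0).erase ((⟨m, by omega⟩ : Fin n), (⟨m + 1, hm⟩ : Fin n)) →
      (Equiv.swap (⟨m, by omega⟩ : Fin n) ⟨m + 1, hm⟩ p.1,
        Equiv.swap (⟨m, by omega⟩ : Fin n) ⟨m + 1, hm⟩ p.2)
        ∈ (edges n h0).erase ((⟨m, by omega⟩ : Fin n), (⟨m + 1, hm⟩ : Fin n)) := by
  intro p hp
  rw [Finset.mem_erase, mem_edges] at hp ⊢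
  obtain ⟨hne, hlt, hlt2⟩ := hp
  have hne' : ¬ ((p.1 : ℕ) = m ∧ (p.2 : ℕ) = m + 1) := by
    rintro ⟨h1, h2⟩
    apply hne
    exact Prod.ext (Fin.ext h1) (Fin.ext h2)
  have key := swap_inv_nat h0 m hh hd p.1 p.2 hlt hlt2 hne'
  refine ⟨?_, ?_, ?_⟩
  · intro heq
    have e1 := congrArg (fun t : Fin n × Fin n => (t.1 : ℕ)) heq
    have e2 := congrArg (fun t : Fin n × Fin n => (t.2 : ℕ)) heq
    simp only [swap_val] at e1 e2
    exact key.2.2 ⟨e1, e2⟩
  · rw [Fin.lt_def, swap_val, swap_val]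
    exact key.1
  · simp only [swap_val]
    exact key.2.1

section modular
variable {K : Type*} [CommRing K] {ι : Type*} [Fintype ι] [LinearOrder ι]

/-- modular law, type I: the vertex `a` lies to the left of the twins `m, m+1` -/
lemma modI (q : K) (x : ι → K) {n : ℕ} (h0 h1 h2 : ℕ → ℕ) (a m : ℕ) (ham : a < m) (hm : m + 1 < n)
    (h0a : h0 a = m) (h1a : h1 a = m + 1) (h2a : h2 a = m + 2)
    (h01 : ∀ u, u ≠ a → h1 u = h0 u) (h02 : ∀ u, u ≠ a → h2 u = h0 u)
    (hh : h0 m = h0 (m + 1)) (hbc : m + 1 < h0 m)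
    (hd : ∀ d, d < m → h0 d ≤ m ∨ m + 2 ≤ h0 d) :
    (1 + q) * Zf q x n h1 = q * Zf q x n h0 + Zf q x n h2 := by
  classical
  have han : a < n := by omega
  have hmn : m < n := by omega
  have hE1 : edges n h1 = insert ((⟨a, han⟩ : Fin n), (⟨m, hmn⟩ : Fin n)) (edges n h0) := by
    ext ⟨⟨u, hu⟩, ⟨v, hv⟩⟩
    simp only [mem_edges, Finset.mem_insert, Prod.mk.injEq, Fin.mk.injEq, Fin.mk_lt_mk]
    by_cases hua : u = a
    · subst hua; rw [h1a, h0a]; omega
    · rw [h01 u hua]; omega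
  have hE2 : edges n h2 = insert ((⟨a, han⟩ : Fin n), (⟨m + 1, hm⟩ : Fin n))
      (insert ((⟨a, han⟩ : Fin n), (⟨m, hmn⟩ : Fin n)) (edges n h0)) := by
    ext ⟨⟨u, hu⟩, ⟨v, hv⟩⟩
    simp only [mem_edges, Finset.mem_insert, Prod.mk.injEq, Fin.mk.injEq, Fin.mk_lt_mk]
    by_cases hua : u = a
    · subst hua; rw [h2a, h0a]; omega
    · rw [h02 u hua]; omega
  unfold Zf
  rw [hE1, hE2]
  apply modular_core q x (edges n h0) ⟨m, hmn⟩ ⟨m + 1, hm⟩
  · simp only [mem_edges, Fin.mk_lt_mk]; omega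
  · exact edges_swap_inv h0 m hm hh hd
  · simp only [mem_edges, Fin.mk_lt_mk]; omega
  · simp only [mem_edges, Fin.mk_lt_mk]; omega
  · simp only [ne_eq, Prod.mk.injEq, Fin.mk.injEq]; omega
  · apply Prod.ext
    · apply Fin.ext
      simp only [swap_val]
      exact sw_other m a (by omega) (by omega)
    · apply Fin.ext
      simp only [swap_val]
      exact sw_left m
  · intro f
    exact phi_locI q _ _ _

/-- modular law, type II: the vertex `A` lies to the right of the twins `m, m+1` -/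
lemma modII (q : K) (x : ι → K) {n : ℕ} (h0 h1 h2 : ℕ → ℕ) (A m : ℕ) (hmA : m + 1 < A) (hA : A < n)
    (h0m : h0 m = A) (h0m' : h0 (m + 1) = A)
    (h1m : h1 m = A) (h1m' : h1 (m + 1) = A + 1)
    (h2m : h2 m = A + 1) (h2m' : h2 (m + 1) = A + 1)
    (h01 : ∀ u, u ≠ m → u ≠ m + 1 → h1 u = h0 u) (h02 : ∀ u, u ≠ m → u ≠ m + 1 → h2 u = h0 u)
    (hd : ∀ d, d < m → h0 d ≤ m ∨ m + 2 ≤ h0 d) :
    (1 + q) * Zf q x n h1 = q * Zf q x n h0 + Zf q x n h2 := by
  classical
  have hm : m + 1 < n := by omega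
  have hmn : m < n := by omega
  have hE1 : edges n h1 = insert ((⟨m + 1, hm⟩ : Fin n), (⟨A, hA⟩ : Fin n)) (edges n h0) := by
    ext ⟨⟨u, hu⟩, ⟨v, hv⟩⟩
    simp only [mem_edges, Finset.mem_insert, Prod.mk.injEq, Fin.mk.injEq, Fin.mk_lt_mk]
    by_cases hu1 : u = m
    · subst hu1; rw [h1m, h0m]; omega
    · by_cases hu2 : u = m + 1
      · subst hu2; rw [h1m', h0m']; omega
      · rw [h01 u hu1 hu2]; omega
  have hE2 : edges n h2 = insert ((⟨m, hmn⟩ : Fin n), (⟨A, hA⟩ : Fin n))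
      (insert ((⟨m + 1, hm⟩ : Fin n), (⟨A, hA⟩ : Fin n)) (edges n h0)) := by
    ext ⟨⟨u, hu⟩, ⟨v, hv⟩⟩
    simp only [mem_edges, Finset.mem_insert, Prod.mk.injEq, Fin.mk.injEq, Fin.mk_lt_mk]
    by_cases hu1 : u = m
    · subst hu1; rw [h2m, h0m]; omega
    · by_cases hu2 : u = m + 1
      · subst hu2; rw [h2m', h0m']; omega
      · rw [h02 u hu1 hu2]; omega
  unfold Zf
  rw [hE1, hE2]
  apply modular_core q x (edges n h0) ⟨m, hmn⟩ ⟨m + 1, hm⟩
  · simp only [mem_edges, Fin.mk_lt_mk]; omega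
  · exact edges_swap_inv h0 m hm (by rw [h0m, h0m']) hd
  · simp only [mem_edges, Fin.mk_lt_mk]; omega
  · simp only [mem_edges, Fin.mk_lt_mk]; omega
  · simp only [ne_eq, Prod.mk.injEq, Fin.mk.injEq]; omega
  · apply Prod.ext
    · apply Fin.ext
      simp only [swap_val]
      exact sw_right m
    · apply Fin.ext
      simp only [swap_val]
      exact sw_other m A (by omega) (by omega)
  · intro f
    exact phi_locII q _ _ _

end modular

end Vale.Agent.Lib.P066
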