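import Vale.Agent.Lib.P066.Chain

namespace Vale.Agent.Lib.P066

open Finset

/-- Gaussian binomial coefficient, defined by the `q`-Pascal recursion -/
def gb {K : Type*} [CommSemiring K] (q : K) : ℕ → ℕ → K
  | _, 0 => 1
  | 0, (_ + 1) => 0
  | (m + 1), (d + 1) => gb q m d + q ^ (d + 1) * gb q m (d + 1)

section gb
variable {K : Type*} [CommRing K]

@[simp] lemma gb_zero_right (q : K) (m : ℕ) : gb q m 0 = 1 := by cases m <;> simp [gb]
@[simp] lemma gb_zero_succ (q : K) (d : ℕ) : gb q 0 (d + 1) = 0 := by simp [gb]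
lemma gb_succ_succ (q : K) (m d : ℕ) :
    gb q (m + 1) (d + 1) = gb q m d + q ^ (d + 1) * gb q m (d + 1) := by simp [gb]

lemma gb_eq_zero (q : K) : ∀ m d, m < d → gb q m d = 0 := by
  intro m
  induction m with
  | zero => intro d hd; cases d with
    | zero => omega
    | succ d => simp
  | succ m ih => intro d hd; cases d with
    | zero => omega
    | succ d => rw [gb_succ_succ, ih d (by omega), ih (d + 1) (by omega)]; simp

/-- `[d+1] * binom(m+1, d+1) = [m+1] * binom(m, d)` together with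
`[d+1] * binom(d+e, d+1) = [e] * binom(d+e, d)` -/
lemma gb_absorb_aux (q : K) : ∀ m, (∀ d, qn q (d + 1) * gb q (m + 1) (d + 1) = qn q (m + 1) * gb q m d)
    ∧ (∀ d e, m = d + e → qn q (d + 1) * gb q m (d + 1) = qn q e * gb q m d) := by
  intro m
  induction m with
  | zero =>
    constructor
    · intro d
      cases d with
      | zero => simp [gb_succ_succ]
      | succ d => rw [gb_eq_zero q 1 (d + 1 + 1) (by omega), gb_eq_zero q 0 (d + 1) (by omega)]; simp
    · intro d e hde
      have hd : d = 0 := by omega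
      have he : e = 0 := by omega
      subst hd; subst he; simp
  | succ m ih =>
    obtain ⟨ih1, ih2⟩ := ih
    have h2 : ∀ d e, m + 1 = d + e → qn q (d + 1) * gb q (m + 1) (d + 1) = qn q e * gb q (m + 1) d := by
      intro d e hde
      rw [ih1 d]
      cases d with
      | zero =>
        have : e = m + 1 := by omega
        subst this; simp
      | succ d =>
        -- [m+1] gb m (d+1) = [e] (gb m d + q^(d+1) gb m (d+1))
        rw [gb_succ_succ]
        have h3 := ih2 d e (by omega)
        -- [d+1] gb m (d+1) = [e] gb m d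
        have h4 : qn q (m + 1) = qn q (d + 1) + q ^ (d + 1) * qn q e := by
          have e0 : m + 1 = d + 1 + e := by omega
          rw [e0, qn_add]
        rw [h4]
        linear_combination h3
    refine ⟨?_, h2⟩
    intro d
    rw [gb_succ_succ]
    by_cases hd : d ≤ m + 1
    · obtain ⟨e, he⟩ : ∃ e, m + 1 = d + e := ⟨m + 1 - d, by omega⟩
      have h3 := h2 d e he
      have h4 : qn q (m + 1 + 1) = qn q (d + 1) + q ^ (d + 1) * qn q e := by
        have e0 : m + 1 + 1 = d + 1 + e := by omega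
        rw [e0, qn_add]
      rw [h4]
      linear_combination q ^ (d + 1) * h3
    · rw [gb_eq_zero q (m + 1) d (by omega), gb_eq_zero q (m + 1) (d + 1) (by omega)]; simp

lemma gb_absorb (q : K) (m d : ℕ) : qn q (d + 1) * gb q (m + 1) (d + 1) = qn q (m + 1) * gb q m d :=
  (gb_absorb_aux q m).1 d

lemma gb_absorb' (q : K) (d e : ℕ) : qn q (d + 1) * gb q (d + e) (d + 1) = qn q e * gb q (d + e) d :=
  (gb_absorb_aux q (d + e)).2 d e rfl

@[simp] lemma qf_zero (q : K) : qf q 0 = 1 := by simp [qf]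
lemma qf_succ (q : K) (m : ℕ) : qf q (m + 1) = qn q (m + 1) * qf q m := by
  rw [qf, Finset.prod_range_succ, mul_comm]; rfl

lemma gb_mul_qf (q : K) : ∀ d e, gb q (d + e) d * (qf q d * qf q e) = qf q (d + e) := by
  intro d
  induction d with
  | zero => intro e; simp
  | succ d ih =>
    intro e
    have h1 := gb_absorb' q d (e + 1)
    have h2 := ih (e + 1)
    have e1 : d + 1 + e = d + (e + 1) := by omega
    rw [e1, qf_succ q d, ← h2, qf_succ q e]
    linear_combination (qf q d * qf q e) * h1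

/-- coefficients of the rectangle relation -/
def cf (q : K) (ρ m j i : ℕ) : K :=
  if i ≤ j then q ^ ((ρ - i) * (j - i)) * gb q m (j - i) * gb q ρ i else 0

lemma cf_t0 (q : K) (ρ m j κ : ℕ) (h : ρ + 1 + m = j + κ + 1) :
    qn q (j + 1) * cf q (ρ + 1) m (j + 1) 0 = (qn q (κ + 1) - qn q (ρ + 1)) * cf q (ρ + 1) m j 0 := by
  simp only [cf, Nat.zero_le, if_true, Nat.sub_zero, gb_zero_right, mul_one]
  by_cases hjm : j ≤ m
  · obtain ⟨e, rfl⟩ : ∃ e, m = j + e := ⟨m - j, by omega⟩
    have hκ : κ + 1 = ρ + 1 + e := by omega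
    have hκ' : qn q (κ + 1) = qn q (ρ + 1) + q ^ (ρ + 1) * qn q e := by rw [hκ, qn_add]
    rw [hκ']
    have h1 := gb_absorb' q j e
    have e1 : q ^ ((ρ + 1) * (j + 1)) = q ^ (ρ + 1) * q ^ ((ρ + 1) * j) := by ring
    rw [e1]
    linear_combination (q ^ (ρ + 1) * q ^ ((ρ + 1) * j)) * h1
  · rw [gb_eq_zero q m j (by omega), gb_eq_zero q m (j + 1) (by omega)]; simp

lemma cf_t1 (q : K) (ρ m j κ i : ℕ) (h : ρ + 1 + m = j + κ + 1) (hi : i ≤ ρ) :
    qn q (j + 1) * cf q (ρ + 1) m (j + 1) (i + 1)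
      = (qn q (κ + 1) - qn q (ρ + 1)) * cf q (ρ + 1) m j (i + 1) + qn q (ρ + 1) * cf q ρ (m + 1) j i := by
  obtain ⟨s, rfl⟩ : ∃ s, ρ = i + s := ⟨ρ - i, by omega⟩
  rcases lt_trichotomy i j with hij | hij | hij
  · obtain ⟨d, rfl⟩ : ∃ d, j = i + 1 + d := ⟨j - (i + 1), by omega⟩
    have c1 : cf q (i + s + 1) m (i + 1 + d + 1) (i + 1)
        = q ^ (s * (d + 1)) * gb q m (d + 1) * gb q (i + s + 1) (i + 1) := by
      simp only [cf]
      rw [if_pos (by omega)]
      have a1 : i + s + 1 - (i + 1) = s := by omega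
      have a2 : i + 1 + d + 1 - (i + 1) = d + 1 := by omega
      rw [a1, a2]
    have c2 : cf q (i + s + 1) m (i + 1 + d) (i + 1)
        = q ^ (s * d) * gb q m d * gb q (i + s + 1) (i + 1) := by
      simp only [cf]
      rw [if_pos (by omega)]
      have a1 : i + s + 1 - (i + 1) = s := by omega
      have a2 : i + 1 + d - (i + 1) = d := by omega
      rw [a1, a2]
    have c3 : cf q (i + s) (m + 1) (i + 1 + d) i
        = q ^ (s * (d + 1)) * gb q (m + 1) (d + 1) * gb q (i + s) i := by
      simp only [cf]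
      rw [if_pos (by omega)]
      have a1 : i + s - i = s := by omega
      have a2 : i + 1 + d - i = d + 1 := by omega
      rw [a1, a2]
    rw [c1, c2, c3]
    have hB := gb_absorb q (i + s) i
    have hj : qn q (i + 1 + d + 1) = qn q (d + 1) + q ^ (d + 1) * qn q (i + 1) := by
      have : i + 1 + d + 1 = d + 1 + (i + 1) := by omega
      rw [this, qn_add]
    have hρ : qn q (i + s + 1) = qn q s + q ^ s * qn q (i + 1) := by
      have : i + s + 1 = s + (i + 1) := by omega
      rw [this, qn_add]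
    by_cases hdm : d ≤ m
    · obtain ⟨e, rfl⟩ : ∃ e, m = d + e := ⟨m - d, by omega⟩
      have hκ : qn q (κ + 1) = qn q s + q ^ s * qn q e := by
        have : κ + 1 = s + e := by omega
        rw [this, qn_add]
      have hG := gb_absorb' q d e
      rw [gb_succ_succ q (d + e) d, hj, hκ]
      have e1 : q ^ (s * (d + 1)) = q ^ s * q ^ (s * d) := by ring
      rw [e1]
      rw [hρ] at hB ⊢
      linear_combination (q ^ s * q ^ (s * d) * gb q (i + s + 1) (i + 1)) * hG
        + (q ^ s * q ^ (s * d) * (gb q (d + e) d + q ^ (d + 1) * gb q (d + e) (d + 1))) * hB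
    · rw [gb_eq_zero q m d (by omega), gb_eq_zero q m (d + 1) (by omega),
        gb_eq_zero q (m + 1) (d + 1) (by omega)]
      simp
  · subst hij
    have c1 : cf q (i + s + 1) m (i + 1) (i + 1) = gb q (i + s + 1) (i + 1) := by
      simp [cf]
    have c2 : cf q (i + s + 1) m i (i + 1) = 0 := by
      simp [cf]
    have c3 : cf q (i + s) (m + 1) i i = gb q (i + s) i := by
      simp [cf]
    rw [c1, c2, c3, gb_absorb]
    ring
  · have c1 : cf q (i + s + 1) m (j + 1) (i + 1) = 0 := by
      simp only [cf]; rw [if_neg (by omega)]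
    have c2 : cf q (i + s + 1) m j (i + 1) = 0 := by
      simp only [cf]; rw [if_neg (by omega)]
    have c3 : cf q (i + s) (m + 1) j i = 0 := by
      simp only [cf]; rw [if_neg (by omega)]
    rw [c1, c2, c3]
    ring

theorem closed_form [IsDomain K] (q : K) (hq : ∀ s, qn q (s + 1) ≠ 0) (Φ : ℕ → ℕ → K) (r k : ℕ)
    (T : ∀ i j ρ κ, r = i + ρ + 1 → k = j + κ + 1 →
      qn q (κ + 1) * Φ i (j + 1)
        = (qn q (κ + 1) - qn q (ρ + 1)) * Φ i j + qn q (ρ + 1) * Φ (i + 1) j)
    (full : ∀ j, j ≤ k → Φ r j = Φ r 0) :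
    ∀ j, j ≤ k → ∀ ρ m i0, i0 + ρ = r → ρ + m = k →
      gb q k j * Φ i0 j = ∑ i ∈ range (ρ + 1), cf q ρ m j i * Φ (i0 + i) 0 := by
  intro j
  induction j with
  | zero =>
    intro _ ρ m i0 _ _
    rw [Finset.sum_eq_single 0]
    · simp [cf]
    · intro i _ hi
      simp only [cf]
      rw [if_neg (by omega)]
      simp
    · intro h
      exfalso; apply h; simp
  | succ j ih =>
    intro hj ρ m i0 h1 h2
    cases ρ with
    | zero =>
      have hi0 : i0 = r := by omega
      have hm : m = k := by omega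
      subst hi0; subst hm
      simp [cf, full (j + 1) hj]
    | succ ρ =>
      obtain ⟨κ, hκ⟩ : ∃ κ, k = j + κ + 1 := ⟨k - j - 1, by omega⟩
      have hT := T i0 j ρ κ (by omega) hκ
      have ih1 := ih (by omega) (ρ + 1) m i0 h1 h2
      have ih2 := ih (by omega) ρ (m + 1) (i0 + 1) (by omega) (by omega)
      apply mul_left_cancel₀ (hq j)
      have hab : qn q (j + 1) * gb q k (j + 1) = qn q (κ + 1) * gb q k j := by
        have : k = j + (κ + 1) := by omega
        rw [this]; exact gb_absorb' q j (κ + 1)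
      have lhs : qn q (j + 1) * (gb q k (j + 1) * Φ i0 (j + 1))
          = (qn q (κ + 1) - qn q (ρ + 1)) * (gb q k j * Φ i0 j)
            + qn q (ρ + 1) * (gb q k j * Φ (i0 + 1) j) := by
        linear_combination (Φ i0 (j + 1)) * hab + (gb q k j) * hT
      rw [lhs, ih1, ih2, Finset.sum_range_succ' _ (ρ + 1), Finset.sum_range_succ' _ (ρ + 1)]
      rw [mul_add, mul_add, Finset.mul_sum, Finset.mul_sum, Finset.mul_sum]
      have t0 := cf_t0 q ρ m j κ (by omega)
      have hsum : ∑ i ∈ range (ρ + 1), qn q (j + 1) * (cf q (ρ + 1) m (j + 1) (i + 1) * Φ (i0 + (i + 1)) 0)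
          = ∑ i ∈ range (ρ + 1), (qn q (κ + 1) - qn q (ρ + 1)) * (cf q (ρ + 1) m j (i + 1) * Φ (i0 + (i + 1)) 0)
            + ∑ i ∈ range (ρ + 1), qn q (ρ + 1) * (cf q ρ (m + 1) j i * Φ (i0 + 1 + i) 0) := by
        rw [← Finset.sum_add_distrib]
        apply Finset.sum_congr rfl
        intro i hi
        have t1 := cf_t1 q ρ m j κ i (by omega) (by simp at hi; omega)
        have e : i0 + 1 + i = i0 + (i + 1) := by omega
        rw [e]
        linear_combination (Φ (i0 + (i + 1)) 0) * t1
      rw [hsum]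
      linear_combination (-(Φ (i0 + 0) 0)) * t0

end gb

end Vale.Agent.Lib.P066
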