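import Vale.Agent.Lib.P066.QAlg

namespace Vale.Agent.Lib.P066

open Finset

section rect
variable {K : Type*} [CommRing K] [IsDomain K] {ι : Type*} [Fintype ι] [LinearOrder ι]

lemma qn_cross (q : K) (ρ κ : ℕ) :
    q * (qn q (ρ + 1) * qn q κ - qn q (κ + 1) * qn q ρ) = qn q (κ + 1) - qn q (ρ + 1) := by
  rw [qn_succ' q ρ, qn_succ' q κ]; ring

lemma triangle' (q : K) (x : ι → K) {n : ℕ} {h : ℕ → ℕ} {a k b r : ℕ} (B : Board n h a k b r)
    (i j ρ κ : ℕ) (hr : r = i + ρ + 1) (hk : k = j + κ + 1) :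
    qn q (κ + 1) * Zf q x n (boardH h a k b r i (j + 1))
      = (qn q (κ + 1) - qn q (ρ + 1)) * Zf q x n (boardH h a k b r i j)
        + qn q (ρ + 1) * Zf q x n (boardH h a k b r (i + 1) j) := by
  rw [triangle q x B i j ρ κ hr hk, qn_cross]

theorem rectA_raw (q : K) (hq : ∀ s, qn q (s + 1) ≠ 0) (x : ι → K) {n : ℕ} {h : ℕ → ℕ}
    {a k b r : ℕ} (B : Board n h a k b r) (m : ℕ) (hm : r + m = k) (j : ℕ) (hj : j ≤ k) :
    gb q k j * Zf q x n (boardH h a k b r 0 j)
      = ∑ i ∈ range (r + 1), cf q r m j i * Zf q x n (boardH h a k b r i 0) := by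
  have := closed_form q hq (fun i j => Zf q x n (boardH h a k b r i j)) r k
    (fun i j ρ κ hr hk => triangle' q x B i j ρ κ hr hk)
    (by
      intro j _
      apply Zf_congr
      intro u _
      simp only [boardH]
      split_ifs <;> rfl)
    j hj r m 0 (by omega) hm
  simpa using this

theorem rectB_raw (q : K) (hq : ∀ s, qn q (s + 1) ≠ 0) (x : ι → K) {n : ℕ} {h : ℕ → ℕ}
    {a k b r : ℕ} (B : Board n h a k b r) (m : ℕ) (hm : k + m = r) (i : ℕ) (hi : i ≤ r) :
    gb q r i * Zf q x n (boardH h a k b r i 0)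
      = ∑ j ∈ range (k + 1), cf q k m i j * Zf q x n (boardH h a k b r 0 j) := by
  have := closed_form q hq (fun j i => Zf q x n (boardH h a k b r i j)) k r
    (fun j i κ ρ hk hr => by
      have := triangle' q x B i j ρ κ hr hk
      linear_combination (-1 : K) * this)
    (by
      intro i _
      apply Zf_congr
      intro u _
      simp only [boardH]
      split_ifs <;> first | rfl | omega)
    i hi k m 0 (by omega) hm
  simpa using this

end rect

end Vale.Agent.Lib.P066
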