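import Vale.Agent.Lib.P066.EP
import Vale.Agent.Lib.P066.Bridge
import Vale.Agent.Lib.P066.Rect
import Vale.Agent.Lib.P066.Complete

namespace Vale.Agent.Lib.P066

open Finset Polynomial

section alg
variable {K : Type*} [CommRing K] [IsDomain K]

lemma qf_ne_zero (q : K) (hq : ∀ s, qn q (s + 1) ≠ 0) : ∀ m, qf q m ≠ 0 := by
  intro m
  induction m with
  | zero => simp
  | succ m ih => rw [qf_succ]; exact mul_ne_zero (hq m) ih

lemma gb_ne_zero (q : K) (hq : ∀ s, qn q (s + 1) ≠ 0) (d e : ℕ) : gb q (d + e) d ≠ 0 := by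
  intro h
  have := gb_mul_qf q d e
  rw [h, zero_mul] at this
  exact qf_ne_zero q hq _ this.symm

lemma rect_alg (q : K) (hq : ∀ s, qn q (s + 1) ≠ 0) (r m k j : ℕ) (hk : r + m = k) (hj : j ≤ k)
    (Z : K) (Zi : ℕ → K) (w : K) (E : ℕ → K)
    (hraw : gb q k j * Z = ∑ i ∈ range (r + 1), cf q r m j i * Zi i)
    (hZ : ∀ i, i ≤ r → i ≤ j → j ≤ i + m → Zi i = qf q (r - i) * qf q i * qf q k * w * E i) :
    Z = qf q r * qf q j * qf q (k - j) * w *
      ∑ i ∈ range (r + 1), (if i ≤ j then q ^ ((r - i) * (j - i)) * gb q m (j - i) else 0) * E i := by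
  obtain ⟨e, rfl⟩ : ∃ e, k = j + e := ⟨k - j, by omega⟩
  apply mul_left_cancel₀ (gb_ne_zero q hq j e)
  rw [hraw, Finset.mul_sum, Finset.mul_sum]
  apply Finset.sum_congr rfl
  intro i hi
  have hir : i ≤ r := by simp at hi; omega
  have e1 : j + e - j = e := by omega
  rw [e1]
  have hkj := gb_mul_qf q j e
  by_cases hij : i ≤ j
  · simp only [cf, if_pos hij]
    by_cases hjm : j ≤ i + m
    · rw [hZ i hir hij hjm]
      obtain ⟨s, rfl⟩ : ∃ s, r = i + s := ⟨r - i, by omega⟩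
      have e2 : i + s - i = s := by omega
      rw [e2]
      have hri := gb_mul_qf q i s
      rw [← hri, ← hkj]
      ring
    · rw [gb_eq_zero q m (j - i) (by omega)]
      ring
  · simp only [cf, if_neg hij]
    ring

end alg

/-- `χ = w * E` with `E` an `e`-positive family -/
def Sound (n : ℕ) (h : ℕ → ℕ) (w : ℕ[X]) : Prop :=
  ∃ E : (N : ℕ) → MvPolynomial (Fin N) ℤ[X], EP n E ∧ ∀ N, chi n N h = io N w * E N

lemma Sound.ePosDiv {n : ℕ} {h : ℕ → ℕ} {w : ℕ[X]} (H : Sound n h w) : EPosDiv n h w := by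
  obtain ⟨E, ⟨c, hc⟩, hE⟩ := H
  refine ⟨c, fun N => ?_⟩
  rw [hE, hc, Finset.mul_sum]
  apply Finset.sum_congr rfl
  intro l _
  rw [← io_apply, map_mul, mul_assoc]

lemma sound_complete (n : ℕ) : Sound n (fun _ => n) (qfact n) := by
  refine ⟨_, EP.esymm n, fun N => ?_⟩
  rw [chi_eq_Zf, Zf_complete, io_qfact]
  rfl

lemma sound_congr {n : ℕ} {h h' : ℕ → ℕ} {w : ℕ[X]} (hh : ∀ u, u < n → h u = h' u)
    (H : Sound n h w) : Sound n h' w := by
  obtain ⟨E, hE, hc⟩ := H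
  refine ⟨E, hE, fun N => ?_⟩
  rw [← hc, chi_eq_Zf, chi_eq_Zf]
  exact (Zf_congr _ _ hh).symm

lemma sound_weaken {n : ℕ} {h : ℕ → ℕ} {w w' : ℕ[X]} (H : Sound n h (w * w')) : Sound n h w := by
  obtain ⟨E, hE, hc⟩ := H
  refine ⟨_, EP.smul w' hE, fun N => ?_⟩
  rw [hc, map_mul, mul_assoc]

lemma sound_union {n₁ n₂ : ℕ} {h₁ h₂ : ℕ → ℕ} {w₁ w₂ : ℕ[X]} (hh : ∀ u, u < n₁ → h₁ u ≤ n₁)
    (H₁ : Sound n₁ h₁ w₁) (H₂ : Sound n₂ h₂ w₂) :
    Sound (n₁ + n₂) (hunion n₁ h₁ h₂) (w₁ * w₂) := by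
  obtain ⟨E₁, hE₁, hc₁⟩ := H₁
  obtain ⟨E₂, hE₂, hc₂⟩ := H₂
  refine ⟨_, EP.mul hE₁ hE₂, fun N => ?_⟩
  rw [chi_eq_Zf, Zf_union _ _ _ _ _ _ hh, ← chi_eq_Zf, ← chi_eq_Zf, hc₁, hc₂, map_mul]
  ring

/-- the coefficient polynomial of the rectangle rules -/
noncomputable def rc (r m j i : ℕ) : ℕ[X] :=
  if i ≤ j then X ^ ((r - i) * (j - i)) * gb (X : ℕ[X]) m (j - i) else 0

lemma io_rc (N r m j i : ℕ) : io N (rc r m j i)
    = if i ≤ j then (MvPolynomial.C (X : ℤ[X]) : MvPolynomial (Fin N) ℤ[X]) ^ ((r - i) * (j - i))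
        * gb (MvPolynomial.C (X : ℤ[X])) m (j - i) else 0 := by
  unfold rc
  split_ifs
  · rw [map_mul, map_pow, map_gb, io_X]
  · rw [map_zero]

lemma sound_rectA {n : ℕ} {h : ℕ → ℕ} {a k b r j : ℕ} {w : ℕ[X]}
    (B : Board n h a k b r) (hrk : r ≤ k) (hj : j ≤ k)
    (H : ∀ i, i ≤ r → i ≤ j → j ≤ i + (k - r) →
      Sound n (boardH h a k b r i 0) (qfact (r - i) * qfact i * qfact k * w)) :
    Sound n (boardH h a k b r 0 j) (qfact r * qfact j * qfact (k - j) * w) := by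
  have H' : ∀ i, ∃ E : (N : ℕ) → MvPolynomial (Fin N) ℤ[X], EP n E ∧
      (i ≤ r → i ≤ j → j ≤ i + (k - r) → ∀ N, chi n N (boardH h a k b r i 0)
        = io N (qfact (r - i) * qfact i * qfact k * w) * E N) := by
    intro i
    by_cases hc : i ≤ r ∧ i ≤ j ∧ j ≤ i + (k - r)
    · obtain ⟨E, hE, hc'⟩ := H i hc.1 hc.2.1 hc.2.2
      exact ⟨E, hE, fun _ _ _ => hc'⟩
    · exact ⟨_, EP.zero n, fun h1 h2 h3 => absurd ⟨h1, h2, h3⟩ hc⟩
  choose E hE hc using H'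
  refine ⟨fun N => ∑ i ∈ range (r + 1), io N (rc r (k - r) j i) * E i N,
    EP.sum _ _ (fun i _ => EP.smul _ (hE i)), fun N => ?_⟩
  have hraw := rectA_raw (MvPolynomial.C (X : ℤ[X]) : MvPolynomial (Fin N) ℤ[X]) (qnCX_ne_zero N)
    (fun i : Fin N => (MvPolynomial.X i : MvPolynomial (Fin N) ℤ[X])) B (k - r) (by omega) j hj
  simp only [← chi_eq_Zf] at hraw
  have := rect_alg (MvPolynomial.C (X : ℤ[X]) : MvPolynomial (Fin N) ℤ[X]) (qnCX_ne_zero N)
    r (k - r) k j (by omega) hj _ _ (io N w) (fun i => E i N) hraw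
    (by
      intro i h1 h2 h3
      rw [hc i h1 h2 h3 N]
      simp only [map_mul, io_qfact])
  rw [this]
  simp only [map_mul, io_qfact, io_rc]

lemma sound_rectB {n : ℕ} {h : ℕ → ℕ} {a k b r i : ℕ} {w : ℕ[X]}
    (B : Board n h a k b r) (hkr : k ≤ r) (hi : i ≤ r)
    (H : ∀ j, j ≤ k → j ≤ i → i ≤ j + (r - k) →
      Sound n (boardH h a k b r 0 j) (qfact r * qfact j * qfact (k - j) * w)) :
    Sound n (boardH h a k b r i 0) (qfact (r - i) * qfact i * qfact k * w) := by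
  have H' : ∀ j, ∃ E : (N : ℕ) → MvPolynomial (Fin N) ℤ[X], EP n E ∧
      (j ≤ k → j ≤ i → i ≤ j + (r - k) → ∀ N, chi n N (boardH h a k b r 0 j)
        = io N (qfact r * qfact j * qfact (k - j) * w) * E N) := by
    intro j
    by_cases hc : j ≤ k ∧ j ≤ i ∧ i ≤ j + (r - k)
    · obtain ⟨E, hE, hc'⟩ := H j hc.1 hc.2.1 hc.2.2
      exact ⟨E, hE, fun _ _ _ => hc'⟩
    · exact ⟨_, EP.zero n, fun h1 h2 h3 => absurd ⟨h1, h2, h3⟩ hc⟩
  choose E hE hc using H'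
  refine ⟨fun N => ∑ j ∈ range (k + 1), io N (rc k (r - k) i j) * E j N,
    EP.sum _ _ (fun j _ => EP.smul _ (hE j)), fun N => ?_⟩
  have hraw := rectB_raw (MvPolynomial.C (X : ℤ[X]) : MvPolynomial (Fin N) ℤ[X]) (qnCX_ne_zero N)
    (fun i : Fin N => (MvPolynomial.X i : MvPolynomial (Fin N) ℤ[X])) B (r - k) (by omega) i hi
  simp only [← chi_eq_Zf] at hraw
  have := rect_alg (MvPolynomial.C (X : ℤ[X]) : MvPolynomial (Fin N) ℤ[X]) (qnCX_ne_zero N)
    k (r - k) r i (by omega) hi _ _ (io N w) (fun j => E j N) hraw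
    (by
      intro j h1 h2 h3
      rw [hc j h1 h2 h3 N]
      simp only [map_mul, io_qfact]
      ring)
  rw [this]
  simp only [map_mul, io_qfact, io_rc]
  ring

theorem sound {n : ℕ} {h : ℕ → ℕ} {w : ℕ[X]} (H : Good n h w) : Sound n h w := by
  induction H with
  | complete n => exact sound_complete n
  | congr hh _ ih => exact sound_congr hh ih
  | weaken _ ih => exact sound_weaken ih
  | union hh _ _ ih₁ ih₂ => exact sound_union hh ih₁ ih₂
  | rectA B hrk hj _ ih => exact sound_rectA B hrk hj ih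
  | rectB B hkr hi _ ih => exact sound_rectB B hkr hi ih

end Vale.Agent.Lib.P066
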