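import Vale.Agent.Lib.P066.Core
import Vale.Agent.Lib.P066.Defs

namespace Vale.Agent.Lib.P066

open Finset

section union
variable {K : Type*} [CommRing K] {ι : Type*} [Fintype ι] [LinearOrder ι]

/-- product over the edges as a double product -/
lemma prod_edges (n : ℕ) (h : ℕ → ℕ) (F : Fin n → Fin n → K) :
    ∏ p ∈ edges n h, F p.1 p.2
      = ∏ a : Fin n, ∏ b : Fin n, if a < b ∧ (b : ℕ) < h a then F a b else 1 := by
  unfold edges
  rw [Finset.prod_filter, ← Finset.univ_product_univ, Finset.prod_product]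

lemma Zf_union (q : K) (x : ι → K) (n₁ n₂ : ℕ) (h₁ h₂ : ℕ → ℕ) (hh : ∀ u, u < n₁ → h₁ u ≤ n₁) :
    Zf q x (n₁ + n₂) (hunion n₁ h₁ h₂) = Zf q x n₁ h₁ * Zf q x n₂ h₂ := by
  unfold Zf
  rw [Finset.sum_mul_sum, ← Finset.sum_product', Finset.univ_product_univ]
  symm
  apply Fintype.sum_equiv (Fin.appendEquiv n₁ n₂)
  rintro ⟨f, g⟩
  simp only [Fin.appendEquiv, Equiv.coe_fn_mk]
  rw [prod_edges n₁ h₁ (fun a b => phi q (f a) (f b)), prod_edges n₂ h₂ (fun a b => phi q (g a) (g b)),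
    prod_edges (n₁ + n₂) _ (fun a b => phi q (Fin.append f g a) (Fin.append f g b)),
    Fin.prod_univ_add, Fin.prod_univ_add]
  have e1 : ∀ a : Fin n₁, (∏ b : Fin (n₁ + n₂),
      if Fin.castAdd n₂ a < b ∧ (b : ℕ) < hunion n₁ h₁ h₂ (Fin.castAdd n₂ a : Fin (n₁ + n₂)) then
        phi q (Fin.append f g (Fin.castAdd n₂ a)) (Fin.append f g b) else 1)
      = ∏ b : Fin n₁, if a < b ∧ (b : ℕ) < h₁ a then phi q (f a) (f b) else 1 := by
    intro a
    rw [Fin.prod_univ_add]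
    have : ∀ b : Fin n₂, (if Fin.castAdd n₂ a < Fin.natAdd n₁ b ∧
        ((Fin.natAdd n₁ b : Fin (n₁ + n₂)) : ℕ) < hunion n₁ h₁ h₂ (Fin.castAdd n₂ a : Fin (n₁ + n₂)) then
        phi q (Fin.append f g (Fin.castAdd n₂ a)) (Fin.append f g (Fin.natAdd n₁ b)) else 1) = 1 := by
      intro b
      rw [if_neg]
      rintro ⟨_, h2⟩
      simp only [hunion, Fin.val_castAdd, Fin.val_natAdd, a.2, if_true] at h2
      have := hh a a.2
      omega
    rw [Fintype.prod_eq_one _ this, mul_one]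
    apply Finset.prod_congr rfl
    intro b _
    simp only [Fin.append_left, hunion, Fin.val_castAdd, a.2, if_true]
    have : (Fin.castAdd n₂ a < Fin.castAdd n₂ b) ↔ a < b := by
      rw [Fin.lt_def, Fin.lt_def]; simp
    simp only [this]
  have e2 : ∀ a : Fin n₂, (∏ b : Fin (n₁ + n₂),
      if Fin.natAdd n₁ a < b ∧ (b : ℕ) < hunion n₁ h₁ h₂ (Fin.natAdd n₁ a : Fin (n₁ + n₂)) then
        phi q (Fin.append f g (Fin.natAdd n₁ a)) (Fin.append f g b) else 1)
      = ∏ b : Fin n₂, if a < b ∧ (b : ℕ) < h₂ a then phi q (g a) (g b) else 1 := by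
    intro a
    rw [Fin.prod_univ_add]
    have : ∀ b : Fin n₁, (if Fin.natAdd n₁ a < Fin.castAdd n₂ b ∧
        ((Fin.castAdd n₂ b : Fin (n₁ + n₂)) : ℕ) < hunion n₁ h₁ h₂ (Fin.natAdd n₁ a : Fin (n₁ + n₂)) then
        phi q (Fin.append f g (Fin.natAdd n₁ a)) (Fin.append f g (Fin.castAdd n₂ b)) else 1) = 1 := by
      intro b
      rw [if_neg]
      rintro ⟨h1, _⟩
      simp only [Fin.lt_def, Fin.val_castAdd, Fin.val_natAdd] at h1
      have := b.2
      omega
    rw [Fintype.prod_eq_one _ this, one_mul]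
    apply Finset.prod_congr rfl
    intro b _
    simp only [Fin.append_right, hunion, Fin.val_natAdd]
    have h1 : (Fin.natAdd n₁ a < Fin.natAdd n₁ b) ↔ a < b := by
      rw [Fin.lt_def, Fin.lt_def]; simp
    have h2 : ¬ (n₁ + (a : ℕ) < n₁) := by omega
    have h3 : n₁ + (a : ℕ) - n₁ = a := by omega
    simp only [h1, h2, if_false, h3, Nat.add_lt_add_iff_left]
  rw [Finset.prod_congr rfl (fun a _ => e1 a), Finset.prod_congr rfl (fun a _ => e2 a)]
  simp only [Fin.append_left, Fin.append_right]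
  ring

end union

end Vale.Agent.Lib.P066
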